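import Vale.Agent.P371h8.Defs

/-!
Diagonal formulas for `Bn` and `DBn`: rotate to an eigenbasis of `G`.
-/

namespace Vale.Agent.P371h8
open Matrix BigOperators

variable {ι : Type*} [Fintype ι] [DecidableEq ι]

theorem dd_succ (n : ℕ) (y y' : ℝ) : dd (n + 1) y y' = y * dd n y y' + y' ^ n := by
  unfold dd
  rw [Finset.sum_range_succ', Finset.mul_sum]
  have h0 : y ^ 0 * y' ^ (n + 1 - 1 - 0) = y' ^ n := by simp
  rw [h0]
  refine congrArg (· + y' ^ n) (Finset.sum_congr rfl ?_)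
  intro r _
  have h : n + 1 - 1 - (r + 1) = n - 1 - r := by omega
  rw [h, pow_succ]
  ring

/-- `Y` in the eigenbasis. -/
def Yd (g β : ι → ℝ) (n : ℕ) : Matrix ι ι ℝ :=
  Matrix.of fun i j => (g i + g j) ^ n * β i * β j

/-- `Z` in the eigenbasis. -/
def Zd (g β ν : ι → ℝ) (n : ℕ) : Matrix ι ι ℝ :=
  Matrix.of fun i j => (g i + g j) ^ n * (ν i * β j + β i * ν j)
    + β i * β j * ∑ k, β k ^ 2 * (dd n (g i + g j) (g k + g j) + dd n (g i + g j) (g i + g k))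

theorem conj_mul_conj (Q A B : Matrix ι ι ℝ) (hQ : Qᵀ * Q = 1) :
    (Q * A * Qᵀ) * (Q * B * Qᵀ) = Q * (A * B) * Qᵀ := by
  calc (Q * A * Qᵀ) * (Q * B * Qᵀ) = Q * A * (Qᵀ * Q) * B * Qᵀ := by
        simp only [Matrix.mul_assoc]
    _ = Q * (A * B) * Qᵀ := by
        rw [hQ]
        simp only [Matrix.mul_assoc, Matrix.one_mul]

theorem Yd_zero (g β : ι → ℝ) : Yd g β 0 = vecMulVec β β := by
  ext i j
  simp [Yd, vecMulVec_apply]

theorem Yd_succ (g β : ι → ℝ) (n : ℕ) :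
    Yd g β (n + 1) = diagonal g * Yd g β n + Yd g β n * diagonal g := by
  ext i j
  simp only [Yd, Matrix.add_apply, Matrix.diagonal_mul, Matrix.mul_diagonal, Matrix.of_apply]
  rw [pow_succ]
  ring

theorem vecMulVec_conj (Q : Matrix ι ι ℝ) (hQ : Qᵀ * Q = 1) (a b : ι → ℝ) :
    vecMulVec a b = Q * vecMulVec (Qᵀ *ᵥ a) (Qᵀ *ᵥ b) * Qᵀ := by
  have hQ' : Q * Qᵀ = 1 := mul_eq_one_comm.mp hQ
  rw [Matrix.mul_vecMulVec, Matrix.vecMulVec_mul, Matrix.vecMul_transpose, Matrix.mulVec_mulVec,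
    Matrix.mulVec_mulVec, hQ', Matrix.one_mulVec, Matrix.one_mulVec]

theorem Y_eq (Q : Matrix ι ι ℝ) (g : ι → ℝ) (hQ : Qᵀ * Q = 1) (G : Matrix ι ι ℝ)
    (hG : G = Q * diagonal g * Qᵀ) (b : ι → ℝ) (n : ℕ) :
    Y G b n = Q * Yd g (Qᵀ *ᵥ b) n * Qᵀ := by
  induction n with
  | zero =>
    rw [Yd_zero]
    exact vecMulVec_conj Q hQ b b
  | succ n ih =>
    rw [Yd_succ]
    change G * Y G b n + Y G b n * G = _
    rw [ih, hG, conj_mul_conj Q _ _ hQ, conj_mul_conj Q _ _ hQ, Matrix.mul_add, Matrix.add_mul]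

theorem Zd_zero (g β ν : ι → ℝ) : Zd g β ν 0 = vecMulVec ν β + vecMulVec β ν := by
  ext i j
  simp [Zd, vecMulVec_apply, dd]

theorem vecMulVec_mul_Yd (g β : ι → ℝ) (n : ℕ) (i j : ι) :
    (vecMulVec β β * Yd g β n) i j = β i * β j * ∑ k, β k ^ 2 * (g k + g j) ^ n := by
  simp only [Matrix.mul_apply, vecMulVec_apply, Yd, Matrix.of_apply, Finset.mul_sum]
  refine Finset.sum_congr rfl fun k _ => ?_
  ring

theorem Yd_mul_vecMulVec (g β : ι → ℝ) (n : ℕ) (i j : ι) :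
    (Yd g β n * vecMulVec β β) i j = β i * β j * ∑ k, β k ^ 2 * (g i + g k) ^ n := by
  simp only [Matrix.mul_apply, vecMulVec_apply, Yd, Matrix.of_apply, Finset.mul_sum]
  refine Finset.sum_congr rfl fun k _ => ?_
  ring

theorem Zd_succ (g β ν : ι → ℝ) (n : ℕ) :
    Zd g β ν (n + 1) = vecMulVec β β * Yd g β n + diagonal g * Zd g β ν n
      + Zd g β ν n * diagonal g + Yd g β n * vecMulVec β β := by
  ext i j
  simp only [Matrix.add_apply, vecMulVec_mul_Yd, Yd_mul_vecMulVec, Matrix.diagonal_mul,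
    Matrix.mul_diagonal]
  simp only [Zd, Matrix.of_apply, dd_succ]
  have key : ∑ k, β k ^ 2 * ((g i + g j) * dd n (g i + g j) (g k + g j) + (g k + g j) ^ n
        + ((g i + g j) * dd n (g i + g j) (g i + g k) + (g i + g k) ^ n))
      = (g i + g j) * ∑ k, β k ^ 2 * (dd n (g i + g j) (g k + g j) + dd n (g i + g j) (g i + g k))
        + ∑ k, β k ^ 2 * (g k + g j) ^ n + ∑ k, β k ^ 2 * (g i + g k) ^ n := by
    rw [Finset.mul_sum, ← Finset.sum_add_distrib, ← Finset.sum_add_distrib]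
    refine Finset.sum_congr rfl fun k _ => ?_
    ring
  rw [key, pow_succ]
  ring

theorem Z_eq (Q : Matrix ι ι ℝ) (g : ι → ℝ) (hQ : Qᵀ * Q = 1) (G : Matrix ι ι ℝ)
    (hG : G = Q * diagonal g * Qᵀ) (b v : ι → ℝ) (n : ℕ) :
    Z G b v n = Q * Zd g (Qᵀ *ᵥ b) (Qᵀ *ᵥ v) n * Qᵀ := by
  induction n with
  | zero =>
    rw [Zd_zero, Matrix.mul_add, Matrix.add_mul, ← vecMulVec_conj Q hQ, ← vecMulVec_conj Q hQ]
    rfl
  | succ n ih =>
    rw [Zd_succ]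
    change vecMulVec b b * Y G b n + G * Z G b v n + Z G b v n * G + Y G b n * vecMulVec b b = _
    rw [ih, Y_eq Q g hQ G hG b n, hG, vecMulVec_conj Q hQ b b, conj_mul_conj Q _ _ hQ,
      conj_mul_conj Q _ _ hQ, conj_mul_conj Q _ _ hQ, conj_mul_conj Q _ _ hQ]
    simp only [Matrix.mul_add, Matrix.add_mul]

theorem dot_conj (Q X : Matrix ι ι ℝ) (a c : ι → ℝ) :
    a ⬝ᵥ ((Q * X * Qᵀ) *ᵥ c) = (Qᵀ *ᵥ a) ⬝ᵥ (X *ᵥ (Qᵀ *ᵥ c)) := by
  rw [← Matrix.mulVec_mulVec, ← Matrix.mulVec_mulVec, Matrix.dotProduct_mulVec,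
    Matrix.mulVec_transpose Q a]

theorem dot_Yd (g α β γ : ι → ℝ) (n : ℕ) :
    α ⬝ᵥ (Yd g β n *ᵥ γ) = ∑ i, ∑ j, α i * ((g i + g j) ^ n * β i * β j * γ j) := by
  simp only [dotProduct, Matrix.mulVec, Yd, Matrix.of_apply, Finset.mul_sum]

theorem Bn_spectral (Q : Matrix ι ι ℝ) (g : ι → ℝ) (hQ : Qᵀ * Q = 1) (G : Matrix ι ι ℝ)
    (hG : G = Q * diagonal g * Qᵀ) (b : ι → ℝ) (n : ℕ) :
    Bn G b n = ∑ i, ∑ j, (Qᵀ *ᵥ b) i ^ 2 * (Qᵀ *ᵥ b) j ^ 2 * (g i + g j) ^ n := by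
  unfold Bn
  rw [Y_eq Q g hQ G hG b n, dot_conj, dot_Yd]
  refine Finset.sum_congr rfl fun i _ => Finset.sum_congr rfl fun j _ => ?_
  ring

theorem DBn_spectral (Q : Matrix ι ι ℝ) (g : ι → ℝ) (hQ : Qᵀ * Q = 1) (G : Matrix ι ι ℝ)
    (hG : G = Q * diagonal g * Qᵀ) (b v : ι → ℝ) (n : ℕ) :
    DBn G b v n =
      4 * ∑ i, (Qᵀ *ᵥ v) i * (Qᵀ *ᵥ b) i * ∑ j, (Qᵀ *ᵥ b) j ^ 2 * (g i + g j) ^ n
      + 2 * ∑ i, ∑ j, ∑ l, (Qᵀ *ᵥ b) i ^ 2 * (Qᵀ *ᵥ b) j ^ 2 * (Qᵀ *ᵥ b) l ^ 2 *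
          dd n (g i + g j) (g i + g l) := by
  unfold DBn
  rw [Y_eq Q g hQ G hG b n, Z_eq Q g hQ G hG b v n, dot_conj, dot_conj, dot_conj, dot_Yd, dot_Yd]
  set β : ι → ℝ := Qᵀ *ᵥ b with hβ
  set ν : ι → ℝ := Qᵀ *ᵥ v with hν
  -- the four pieces
  have hA1 : ∑ i, ∑ j, ν i * ((g i + g j) ^ n * β i * β j * β j)
      = ∑ i, ν i * β i * ∑ j, β j ^ 2 * (g i + g j) ^ n := by
    refine Finset.sum_congr rfl fun i _ => ?_
    rw [Finset.mul_sum]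
    refine Finset.sum_congr rfl fun j _ => ?_
    ring
  have hA2 : ∑ i, ∑ j, β i * ((g i + g j) ^ n * β i * β j * ν j)
      = ∑ i, ν i * β i * ∑ j, β j ^ 2 * (g i + g j) ^ n := by
    rw [Finset.sum_comm]
    refine Finset.sum_congr rfl fun i _ => ?_
    rw [Finset.mul_sum]
    refine Finset.sum_congr rfl fun j _ => ?_
    rw [add_comm (g j) (g i)]
    ring
  have hZ : β ⬝ᵥ (Zd g β ν n *ᵥ β)
      = ∑ i, ν i * β i * ∑ j, β j ^ 2 * (g i + g j) ^ n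
        + ∑ i, ∑ j, β i * ((g i + g j) ^ n * β i * β j * ν j)
        + (∑ i, ∑ j, ∑ l, β i ^ 2 * β j ^ 2 * β l ^ 2 * dd n (g i + g j) (g l + g j)
          + ∑ i, ∑ j, ∑ l, β i ^ 2 * β j ^ 2 * β l ^ 2 * dd n (g i + g j) (g i + g l)) := by
    rw [← hA1, ← Finset.sum_add_distrib, ← Finset.sum_add_distrib, ← Finset.sum_add_distrib]
    simp only [dotProduct, Matrix.mulVec]
    rw [Finset.sum_congr rfl (fun i _ => Finset.mul_sum _ _ _)]
    refine Finset.sum_congr rfl fun i _ => ?_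
    rw [← Finset.sum_add_distrib, ← Finset.sum_add_distrib, ← Finset.sum_add_distrib]
    refine Finset.sum_congr rfl fun j _ => ?_
    simp only [Zd, Matrix.of_apply]
    have hsum : ∑ k, β k ^ 2 *
          (dd n (g i + g j) (g k + g j) + dd n (g i + g j) (g i + g k))
        = ∑ l, β l ^ 2 * dd n (g i + g j) (g l + g j)
          + ∑ l, β l ^ 2 * dd n (g i + g j) (g i + g l) := by
      rw [← Finset.sum_add_distrib]
      refine Finset.sum_congr rfl fun l _ => ?_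
      ring
    have h1 : ∑ l, β i ^ 2 * β j ^ 2 * β l ^ 2 * dd n (g i + g j) (g l + g j)
        = β i ^ 2 * β j ^ 2 * ∑ l, β l ^ 2 * dd n (g i + g j) (g l + g j) := by
      rw [Finset.mul_sum]
      refine Finset.sum_congr rfl fun l _ => ?_
      ring
    have h2 : ∑ l, β i ^ 2 * β j ^ 2 * β l ^ 2 * dd n (g i + g j) (g i + g l)
        = β i ^ 2 * β j ^ 2 * ∑ l, β l ^ 2 * dd n (g i + g j) (g i + g l) := by
      rw [Finset.mul_sum]
      refine Finset.sum_congr rfl fun l _ => ?_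
      ring
    rw [hsum, h1, h2]
    ring
  have hC : ∑ i, ∑ j, ∑ l, β i ^ 2 * β j ^ 2 * β l ^ 2 * dd n (g i + g j) (g l + g j)
      = ∑ i, ∑ j, ∑ l, β i ^ 2 * β j ^ 2 * β l ^ 2 * dd n (g i + g j) (g i + g l) := by
    rw [Finset.sum_comm]
    refine Finset.sum_congr rfl fun i _ => Finset.sum_congr rfl fun j _ =>
      Finset.sum_congr rfl fun l _ => ?_
    rw [add_comm (g j) (g i), add_comm (g l) (g i)]
    ring
  rw [hZ, hA1, hA2, hC]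
  ring

end Vale.Agent.P371h8
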