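import Vale.Agent.P371h8.Defs

/-! The derivative of the polynomial Bellman function along a path. -/

namespace Vale.Agent.P371h8
open Matrix BigOperators

variable {ι : Type*} [Fintype ι] [DecidableEq ι]

omit [DecidableEq ι] in
/-- the entries of `Y` along a path -/
lemma hasDerivAt_Y (G : ℝ → Matrix ι ι ℝ) (b v : ℝ → ι → ℝ) (x : ℝ)
    (hb : ∀ i, HasDerivAt (fun t => b t i) (v x i) x)
    (hG : ∀ i j, HasDerivAt (fun t => G t i j) (b x i * b x j) x) (n : ℕ) :
    ∀ i j, HasDerivAt (fun t => Y (G t) (b t) n i j) (Z (G x) (b x) (v x) n i j) x := by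
  induction n with
  | zero =>
    intro i j
    simp only [Y, Z, Matrix.add_apply, vecMulVec_apply]
    exact ((hb i).mul (hb j)).congr_deriv (by ring)
  | succ n ih =>
    intro i j
    simp only [Y, Z, Matrix.add_apply, Matrix.mul_apply, vecMulVec_apply]
    have h1 : HasDerivAt (fun t => ∑ k, G t i k * Y (G t) (b t) n k j)
        (∑ k, (b x i * b x k * Y (G x) (b x) n k j + G x i k * Z (G x) (b x) (v x) n k j)) x :=
      HasDerivAt.fun_sum (fun k _ => (hG i k).mul (ih k j))
    have h2 : HasDerivAt (fun t => ∑ k, Y (G t) (b t) n i k * G t k j)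
        (∑ k, (Z (G x) (b x) (v x) n i k * G x k j + Y (G x) (b x) n i k * (b x k * b x j))) x :=
      HasDerivAt.fun_sum (fun k _ => (ih i k).mul (hG k j))
    refine (h1.add h2).congr_deriv ?_
    simp only [Finset.sum_add_distrib]
    ring

/-- the derivative of `Bn` along a path -/
lemma hasDerivAt_Bn (G : ℝ → Matrix ι ι ℝ) (b v : ℝ → ι → ℝ) (x : ℝ)
    (hb : ∀ i, HasDerivAt (fun t => b t i) (v x i) x)
    (hG : ∀ i j, HasDerivAt (fun t => G t i j) (b x i * b x j) x) (n : ℕ) :
    HasDerivAt (fun t => Bn (G t) (b t) n) (DBn (G x) (b x) (v x) n) x := by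
  have hY := hasDerivAt_Y G b v x hb hG n
  have key : HasDerivAt (fun t => ∑ i, ∑ j, b t i * (Y (G t) (b t) n i j * b t j))
      (∑ i, ∑ j, (v x i * (Y (G x) (b x) n i j * b x j) +
        b x i * (Z (G x) (b x) (v x) n i j * b x j + Y (G x) (b x) n i j * v x j))) x :=
    HasDerivAt.fun_sum (fun i _ => HasDerivAt.fun_sum (fun j _ => (hb i).mul ((hY i j).mul (hb j))))
  have e1 : ∀ t, Bn (G t) (b t) n = ∑ i, ∑ j, b t i * (Y (G t) (b t) n i j * b t j) := by
    intro t
    simp only [Bn, dotProduct, mulVec, Finset.mul_sum]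
  refine (key.congr_of_eventuallyEq (Filter.Eventually.of_forall e1)).congr_deriv ?_
  simp only [DBn, dotProduct, mulVec, Finset.mul_sum, ← Finset.sum_add_distrib]
  refine Finset.sum_congr rfl fun i _ => Finset.sum_congr rfl fun j _ => ?_
  ring

/-- The derivative of the polynomial Bellman function along a path. -/
theorem hasDerivAt_Bp (a : ℕ → ℝ) (d : ℕ) (G : ℝ → Matrix ι ι ℝ) (b v : ℝ → ι → ℝ) (x : ℝ)
    (hb : ∀ i, HasDerivAt (fun t => b t i) (v x i) x)
    (hG : ∀ i j, HasDerivAt (fun t => G t i j) (b x i * b x j) x) :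
    HasDerivAt (fun t => Bp a d (G t) (b t)) (DBp a d (G x) (b x) (v x)) x := by
  unfold Bp DBp
  exact HasDerivAt.fun_sum (fun n _ => (hasDerivAt_Bn G b v x hb hG n).const_mul (a n))

end Vale.Agent.P371h8
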