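import Vale.Agent.P371h8.Algebra

/-! Module M: the pointwise inequality for the polynomial Bellman function. -/

namespace Vale.Agent.P371h8
open Matrix BigOperators Real

variable {ι : Type*} [Fintype ι] [DecidableEq ι]

/-- Spectral decomposition of a real symmetric matrix. -/
lemma exists_spectral (G : Matrix ι ι ℝ) (hsymm : G.IsSymm) :
    ∃ (Q : Matrix ι ι ℝ) (g : ι → ℝ), Qᵀ * Q = 1 ∧ G = Q * diagonal g * Qᵀ := by
  have hH : G.IsHermitian := by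
    unfold Matrix.IsHermitian
    rw [conjTranspose_eq_transpose_of_trivial]
    exact hsymm
  refine ⟨(hH.eigenvectorUnitary : Matrix ι ι ℝ), hH.eigenvalues, ?_, ?_⟩
  · have h := Unitary.coe_star_mul_self hH.eigenvectorUnitary
    rw [star_eq_conjTranspose, conjTranspose_eq_transpose_of_trivial] at h
    exact h
  · have h := hH.spectral_theorem
    rw [Unitary.conjStarAlgAut_apply, star_eq_conjTranspose, conjTranspose_eq_transpose_of_trivial] at h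
    simpa using h

omit [DecidableEq ι] in
lemma dot_mulVec_transpose (Q : Matrix ι ι ℝ) (x y : ι → ℝ) :
    (Q *ᵥ x) ⬝ᵥ y = x ⬝ᵥ (Qᵀ *ᵥ y) := by
  rw [dotProduct_mulVec, vecMul_transpose]

lemma dot_orth {Q : Matrix ι ι ℝ} (hQ : Qᵀ * Q = 1) (x y : ι → ℝ) :
    (Q *ᵥ x) ⬝ᵥ (Q *ᵥ y) = x ⬝ᵥ y := by
  rw [dot_mulVec_transpose, mulVec_mulVec, hQ, one_mulVec]

lemma dot_orth' {Q : Matrix ι ι ℝ} (hQ : Qᵀ * Q = 1) (x y : ι → ℝ) :
    (Qᵀ *ᵥ x) ⬝ᵥ (Qᵀ *ᵥ y) = x ⬝ᵥ y := by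
  have hQ' : Q * Qᵀ = 1 := mul_eq_one_comm.1 hQ
  rw [dot_mulVec_transpose, transpose_transpose, mulVec_mulVec, hQ', one_mulVec]

/-- The eigenvalues lie in the interval. -/
lemma eig_bounds {ε : ℝ} {Q : Matrix ι ι ℝ} {g : ι → ℝ} (hQ : Qᵀ * Q = 1) {G : Matrix ι ι ℝ}
    (hG : G = Q * diagonal g * Qᵀ)
    (hlow : ∀ u : ι → ℝ, ε * (u ⬝ᵥ u) ≤ u ⬝ᵥ (G *ᵥ u))
    (hup : ∀ u : ι → ℝ, u ⬝ᵥ (G *ᵥ u) ≤ (1-ε) * (u ⬝ᵥ u)) (i : ι) :
    ε ≤ g i ∧ g i ≤ 1 - ε := by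
  set e : ι → ℝ := Pi.single i 1 with he
  have hee : e ⬝ᵥ e = 1 := by
    simp [he]
  have h1 : (Q *ᵥ e) ⬝ᵥ (Q *ᵥ e) = 1 := by
    rw [dot_orth hQ, hee]
  have h2 : (Q *ᵥ e) ⬝ᵥ (G *ᵥ (Q *ᵥ e)) = g i := by
    have : G *ᵥ (Q *ᵥ e) = Q *ᵥ (diagonal g *ᵥ e) := by
      rw [hG, mulVec_mulVec, mul_assoc, mul_assoc, hQ, mul_one, ← mulVec_mulVec]
    rw [this, dot_orth hQ]
    simp [he]
  have h3 := hlow (Q *ᵥ e)
  have h4 := hup (Q *ᵥ e)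
  rw [h1, h2] at h3 h4
  constructor <;> linarith

/-- The spectral form of the derivative of the polynomial Bellman function. -/
lemma DBp_spectral (a : ℕ → ℝ) (d : ℕ) {Q : Matrix ι ι ℝ} {g : ι → ℝ} (hQ : Qᵀ * Q = 1)
    {G : Matrix ι ι ℝ} (hG : G = Q * diagonal g * Qᵀ) (b v : ι → ℝ) :
    DBp a d G b v =
      4 * ∑ i, (Qᵀ *ᵥ v) i * (Qᵀ *ᵥ b) i * ∑ j, (Qᵀ *ᵥ b) j ^ 2 * pev a d (g i + g j)
      + 2 * ∑ i, ∑ j, ∑ l, (Qᵀ *ᵥ b) i ^ 2 * (Qᵀ *ᵥ b) j ^ 2 * (Qᵀ *ᵥ b) l ^ 2 *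
          pdd a d (g i + g j) (g i + g l) := by
  set β := Qᵀ *ᵥ b with hβ
  set ν := Qᵀ *ᵥ v with hν
  unfold DBp
  simp_rw [DBn_spectral Q g hQ G hG b v]
  simp only [mul_add, Finset.sum_add_distrib]
  congr 1
  · rw [Finset.mul_sum]
    simp only [Finset.mul_sum]
    rw [Finset.sum_comm]
    refine Finset.sum_congr rfl fun i _ => ?_
    rw [Finset.sum_comm]
    refine Finset.sum_congr rfl fun j _ => ?_
    unfold pev
    simp only [Finset.mul_sum]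
    refine Finset.sum_congr rfl fun n _ => ?_
    ring
  · simp only [Finset.mul_sum]
    rw [Finset.sum_comm]
    refine Finset.sum_congr rfl fun i _ => ?_
    rw [Finset.sum_comm]
    refine Finset.sum_congr rfl fun j _ => ?_
    rw [Finset.sum_comm]
    refine Finset.sum_congr rfl fun l _ => ?_
    unfold pdd
    simp only [Finset.mul_sum]
    refine Finset.sum_congr rfl fun n _ => ?_
    ring

/-- The spectral form of the polynomial Bellman function. -/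
lemma Bp_spectral (a : ℕ → ℝ) (d : ℕ) {Q : Matrix ι ι ℝ} {g : ι → ℝ} (hQ : Qᵀ * Q = 1)
    {G : Matrix ι ι ℝ} (hG : G = Q * diagonal g * Qᵀ) (b : ι → ℝ) :
    Bp a d G b = ∑ i, ∑ j, (Qᵀ *ᵥ b) i ^ 2 * (Qᵀ *ᵥ b) j ^ 2 * pev a d (g i + g j) := by
  unfold Bp
  simp_rw [Bn_spectral Q g hQ G hG b]
  simp only [Finset.mul_sum]
  rw [Finset.sum_comm]
  refine Finset.sum_congr rfl fun i _ => ?_
  rw [Finset.sum_comm]
  refine Finset.sum_congr rfl fun j _ => ?_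
  unfold pev
  simp only [Finset.mul_sum]
  refine Finset.sum_congr rfl fun n _ => ?_
  ring

theorem DBp_le (a : ℕ → ℝ) (d : ℕ) (ε δ : ℝ)
    (hK : ∀ y ∈ Set.Icc (2*ε) (2-2*ε), ∀ y' ∈ Set.Icc (2*ε) (2-2*ε),
      4 * pev a d y * pev a d y' + 2 * pdd a d y y' + π^2/4 ≤ δ)
    (G : Matrix ι ι ℝ) (hsymm : G.IsSymm)
    (hlow : ∀ u : ι → ℝ, ε * (u ⬝ᵥ u) ≤ u ⬝ᵥ (G *ᵥ u))
    (hup : ∀ u : ι → ℝ, u ⬝ᵥ (G *ᵥ u) ≤ (1-ε) * (u ⬝ᵥ u))
    (b v : ι → ℝ) :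
    DBp a d G b v ≤ v ⬝ᵥ v - (π^2/4 - δ) * (b ⬝ᵥ b)^3 := by
  obtain ⟨Q, g, hQ, hG⟩ := exists_spectral G hsymm
  have hg := eig_bounds hQ hG hlow hup
  rw [DBp_spectral a d hQ hG b v, ← dot_orth' hQ v v, ← dot_orth' hQ b b]
  set β := Qᵀ *ᵥ b with hβ
  set ν := Qᵀ *ᵥ v with hν
  set D : ι → ℝ := fun i => ∑ j, β j ^ 2 * pev a d (g i + g j) with hD
  have hwsum : β ⬝ᵥ β = ∑ i, β i ^ 2 := by
    simp only [dotProduct, pow_two]
  have hνsum : ν ⬝ᵥ ν = ∑ i, ν i ^ 2 := by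
    simp only [dotProduct, pow_two]
  rw [hwsum, hνsum]
  set S : ℝ := ∑ i, β i ^ 2 with hS
  -- the square
  have h1 : 4 * ∑ i, ν i * β i * D i ≤ ∑ i, ν i ^ 2 + 4 * ∑ i, β i ^ 2 * D i ^ 2 := by
    rw [Finset.mul_sum, Finset.mul_sum, ← Finset.sum_add_distrib]
    refine Finset.sum_le_sum fun i _ => ?_
    nlinarith [sq_nonneg (ν i - 2 * β i * D i)]
  -- the triple sum
  have h2 : ∀ i, β i ^ 2 * D i ^ 2 = ∑ j, ∑ l, β i ^ 2 * β j ^ 2 * β l ^ 2 *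
      (pev a d (g i + g j) * pev a d (g i + g l)) := by
    intro i
    simp only [hD]
    rw [pow_two (∑ j, β j ^ 2 * pev a d (g i + g j)), Finset.sum_mul_sum, Finset.mul_sum]
    refine Finset.sum_congr rfl fun j _ => ?_
    rw [Finset.mul_sum]
    refine Finset.sum_congr rfl fun l _ => ?_
    ring
  have hcube : ∑ i, ∑ j, ∑ l, β i ^ 2 * β j ^ 2 * β l ^ 2 = S ^ 3 := by
    have e : S ^ 3 = S * (S * S) := by ring
    rw [e, Finset.sum_mul]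
    refine Finset.sum_congr rfl fun i _ => ?_
    rw [Finset.sum_mul_sum, Finset.mul_sum]
    refine Finset.sum_congr rfl fun j _ => ?_
    rw [Finset.mul_sum]
    refine Finset.sum_congr rfl fun l _ => ?_
    ring
  have h3 : 4 * ∑ i, β i ^ 2 * D i ^ 2 +
      2 * ∑ i, ∑ j, ∑ l, β i ^ 2 * β j ^ 2 * β l ^ 2 * pdd a d (g i + g j) (g i + g l) ≤
      (δ - π ^ 2 / 4) * S ^ 3 := by
    rw [← hcube]
    simp only [h2, Finset.mul_sum, ← Finset.sum_add_distrib]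
    refine Finset.sum_le_sum fun i _ => Finset.sum_le_sum fun j _ => Finset.sum_le_sum fun l _ => ?_
    have hy : g i + g j ∈ Set.Icc (2 * ε) (2 - 2 * ε) :=
      ⟨by linarith [(hg i).1, (hg j).1], by linarith [(hg i).2, (hg j).2]⟩
    have hy' : g i + g l ∈ Set.Icc (2 * ε) (2 - 2 * ε) :=
      ⟨by linarith [(hg i).1, (hg l).1], by linarith [(hg i).2, (hg l).2]⟩
    have hk := hK _ hy _ hy'
    have hw : 0 ≤ β i ^ 2 * β j ^ 2 * β l ^ 2 := by positivity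
    have := mul_le_mul_of_nonneg_left hk hw
    nlinarith [this]
  linarith

theorem abs_Bp_le (a : ℕ → ℝ) (d : ℕ) (ε M : ℝ)
    (hM : ∀ y ∈ Set.Icc (2*ε) (2-2*ε), |pev a d y| ≤ M)
    (G : Matrix ι ι ℝ) (hsymm : G.IsSymm)
    (hlow : ∀ u : ι → ℝ, ε * (u ⬝ᵥ u) ≤ u ⬝ᵥ (G *ᵥ u))
    (hup : ∀ u : ι → ℝ, u ⬝ᵥ (G *ᵥ u) ≤ (1-ε) * (u ⬝ᵥ u))
    (b : ι → ℝ) :
    |Bp a d G b| ≤ M * (b ⬝ᵥ b)^2 := by
  obtain ⟨Q, g, hQ, hG⟩ := exists_spectral G hsymm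
  have hg := eig_bounds hQ hG hlow hup
  rw [Bp_spectral a d hQ hG b, ← dot_orth' hQ b b]
  set β := Qᵀ *ᵥ b with hβ
  have hwsum : β ⬝ᵥ β = ∑ i, β i ^ 2 := by
    simp only [dotProduct, pow_two]
  rw [hwsum]
  have hsq : (∑ i, β i ^ 2) ^ 2 = ∑ i, ∑ j, β i ^ 2 * β j ^ 2 := by
    rw [pow_two, Finset.sum_mul_sum]
  rw [hsq, Finset.mul_sum]
  refine (Finset.abs_sum_le_sum_abs _ _).trans (Finset.sum_le_sum fun i _ => ?_)
  rw [Finset.mul_sum]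
  refine (Finset.abs_sum_le_sum_abs _ _).trans (Finset.sum_le_sum fun j _ => ?_)
  have hy : g i + g j ∈ Set.Icc (2 * ε) (2 - 2 * ε) :=
    ⟨by linarith [(hg i).1, (hg j).1], by linarith [(hg i).2, (hg j).2]⟩
  have hw : 0 ≤ β i ^ 2 * β j ^ 2 := by positivity
  rw [abs_mul, abs_of_nonneg hw]
  calc β i ^ 2 * β j ^ 2 * |pev a d (g i + g j)| ≤ β i ^ 2 * β j ^ 2 * M :=
        mul_le_mul_of_nonneg_left (hM _ hy) hw
    _ = M * (β i ^ 2 * β j ^ 2) := by ring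

end Vale.Agent.P371h8
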