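import Vale.Agent.P371h8.Poly
import Vale.Agent.P371h8.PathDeriv
import Vale.Agent.P371h8.Pointwise

namespace Vale.Agent.P371h8
open Matrix BigOperators Real MeasureTheory Filter Topology Set

set_option linter.unusedSectionVars false

variable {ι : Type*} [Fintype ι] [DecidableEq ι]

/-- a continuous function tending to `0` at both ends is bounded above. -/
lemma exists_bound_of_tendsto {f : ℝ → ℝ} (hf : Continuous f)
    (h1 : Tendsto f atTop (𝓝 0)) (h2 : Tendsto f atBot (𝓝 0)) : ∃ C, ∀ x, |f x| ≤ C := by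
  have h1' : ∀ᶠ x in atTop, |f x| < 1 := by
    have := h1.abs
    simp only [abs_zero] at this
    exact this.eventually (gt_mem_nhds (by norm_num))
  have h2' : ∀ᶠ x in atBot, |f x| < 1 := by
    have := h2.abs
    simp only [abs_zero] at this
    exact this.eventually (gt_mem_nhds (by norm_num))
  obtain ⟨A, hA⟩ := eventually_atTop.1 h1'
  obtain ⟨B, hB⟩ := eventually_atBot.1 h2'
  obtain ⟨C, hC⟩ := (isCompact_Icc (a := B) (b := A)).exists_bound_of_continuousOn hf.continuousOn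
  refine ⟨max C 1, fun x => ?_⟩
  by_cases hxA : A ≤ x
  · exact le_trans (le_of_lt (hA x hxA)) (le_max_right _ _)
  by_cases hxB : x ≤ B
  · exact le_trans (le_of_lt (hB x hxB)) (le_max_right _ _)
  · have := hC x ⟨le_of_not_ge hxB, le_of_not_ge hxA⟩
    simp only [Real.norm_eq_abs] at this
    exact le_trans this (le_max_left _ _)

/-- squares of `H¹` functions tend to `0`. -/
lemma sq_tendsto_zero {f f' : ℝ → ℝ} (hd : ∀ x, HasDerivAt f (f' x) x)
    (hL2 : Integrable (fun x => f x ^ 2)) (hL2' : Integrable (fun x => f' x ^ 2))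
    (hc : Continuous f') :
    Tendsto (fun x => f x ^ 2) atTop (𝓝 0) ∧ Tendsto (fun x => f x ^ 2) atBot (𝓝 0) := by
  have hfc : Continuous f := continuous_iff_continuousAt.2 fun x => (hd x).continuousAt
  have hd2 : ∀ x, HasDerivAt (fun x => f x ^ 2) (2 * f x * f' x) x := by
    intro x
    have := (hd x).fun_pow 2
    simpa using this
  have hint : Integrable (fun x => 2 * f x * f' x) := by
    refine Integrable.mono' (hL2.add hL2') ?_ ?_
    · exact (by fun_prop : Continuous fun x => 2 * f x * f' x).aestronglyMeasurable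
    · refine Eventually.of_forall fun x => ?_
      simp only [Real.norm_eq_abs, Pi.add_apply]
      rw [abs_le]
      constructor <;> nlinarith [sq_nonneg (f x + f' x), sq_nonneg (f x - f' x)]
  refine ⟨?_, ?_⟩
  · exact tendsto_zero_of_hasDerivAt_of_integrableOn_Ioi (a := 0)
      (fun x _ => hd2 x) hint.integrableOn hL2.integrableOn
  · exact tendsto_zero_of_hasDerivAt_of_integrableOn_Iic (a := 0)
      (fun x _ => hd2 x) hint.integrableOn hL2.integrableOn


variable (Ψ Ψ' : ι → ℝ → ℝ)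

/-- the regularized path of Gram matrices. -/
noncomputable def gramPath (ε R : ℝ) (x : ℝ) : Matrix ι ι ℝ :=
  ε • (1 : Matrix ι ι ℝ) + Matrix.of fun i j => ∫ t in (-R)..x, Ψ i t * Ψ j t

variable {Ψ Ψ'}

lemma gramPath_symm (ε R x : ℝ) : (gramPath Ψ ε R x).IsSymm := by
  ext i j
  simp only [gramPath, Matrix.transpose_apply, Matrix.add_apply, Matrix.smul_apply, Matrix.of_apply,
    Matrix.one_apply, smul_eq_mul]
  congr 1
  · by_cases h : i = j
    · simp [h]
    · simp [h, Ne.symm h]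
  · simp only [mul_comm]

lemma quad_gramPath (hc : ∀ i, Continuous (Ψ i)) (ε R x : ℝ) (u : ι → ℝ) :
    u ⬝ᵥ (gramPath Ψ ε R x *ᵥ u) = ε * (u ⬝ᵥ u) + ∫ t in (-R)..x, (∑ i, u i * Ψ i t) ^ 2 := by
  have hint : ∀ i j, IntervalIntegrable (fun t => Ψ i t * Ψ j t) volume (-R) x :=
    fun i j => ((hc i).mul (hc j)).intervalIntegrable _ _
  have h1 : (∫ t in (-R)..x, (∑ i, u i * Ψ i t) ^ 2)
      = ∑ i, ∑ j, u i * u j * ∫ t in (-R)..x, Ψ i t * Ψ j t := by
    have : ∀ t, (∑ i, u i * Ψ i t) ^ 2 = ∑ i, ∑ j, u i * u j * (Ψ i t * Ψ j t) := by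
      intro t
      rw [sq, Finset.sum_mul_sum]
      refine Finset.sum_congr rfl fun i _ => Finset.sum_congr rfl fun j _ => by ring
    simp_rw [this]
    rw [intervalIntegral.integral_finsetSum]
    · refine Finset.sum_congr rfl fun i _ => ?_
      rw [intervalIntegral.integral_finsetSum]
      · refine Finset.sum_congr rfl fun j _ => ?_
        rw [intervalIntegral.integral_const_mul]
      · exact fun j _ => (hint i j).const_mul _
    · intro i _
      exact (continuous_finsetSum _ fun j _ =>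
        continuous_const.mul ((hc i).mul (hc j))).intervalIntegrable _ _
  rw [h1]
  simp only [gramPath, Matrix.add_mulVec, Matrix.smul_mulVec, Matrix.one_mulVec, dotProduct_add,
    dotProduct_smul, smul_eq_mul]
  congr 1
  simp only [dotProduct, Matrix.mulVec, Matrix.of_apply, Finset.mul_sum]
  refine Finset.sum_congr rfl fun i _ => Finset.sum_congr rfl fun j _ => by ring

lemma gramPath_hasDerivAt (hc : ∀ i, Continuous (Ψ i)) (ε R x : ℝ) (i j : ι) :
    HasDerivAt (fun t => gramPath Ψ ε R t i j) (Ψ i x * Ψ j x) x := by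
  have h := (((hc i).mul (hc j)).integral_hasStrictDerivAt (-R) x).hasDerivAt
  have : (fun t => gramPath Ψ ε R t i j)
      = fun t => (ε • (1 : Matrix ι ι ℝ)) i j + ∫ s in (-R)..t, Ψ i s * Ψ j s := by
    funext t
    simp [gramPath]
  rw [this]
  exact h.const_add _

/-- the main estimate on a fixed window, with the Gram form bounded by `1 - 2ε`. -/
theorem core_eps_delta (hd : ∀ i x, HasDerivAt (Ψ i) (Ψ' i x) x) (hc' : ∀ i, Continuous (Ψ' i))
    (hL2 : ∀ i, Integrable (fun x => Ψ i x ^ 2))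
    (hL2' : ∀ i, Integrable (fun x => Ψ' i x ^ 2))
    (ε δ : ℝ) (hε : 0 < ε) (hε2 : ε < 1/2) (hδ : 0 < δ)
    (hGram : ∀ u : ι → ℝ, ∫ x, (∑ i, u i * Ψ i x) ^ 2 ≤ (1 - 2 * ε) * ∑ i, u i ^ 2)
    (hρ3 : Integrable (fun x => (∑ i, Ψ i x ^ 2) ^ 3)) :
    (π^2/4 - δ) * ∫ x, (∑ i, Ψ i x ^ 2) ^ 3 ≤ ∑ i, ∫ x, Ψ' i x ^ 2 := by
  have hc : ∀ i, Continuous (Ψ i) :=
    fun i => continuous_iff_continuousAt.2 fun x => (hd i x).continuousAt
  obtain ⟨d, a, hK⟩ := exists_poly ε δ hε hε2 hδ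
  -- bound of the polynomial on the compact interval
  have hpc : Continuous (pev a d) := by
    unfold pev
    fun_prop
  obtain ⟨M, hM⟩ := (isCompact_Icc (a := 2*ε) (b := 2-2*ε)).exists_bound_of_continuousOn
    hpc.continuousOn
  have hM' : ∀ y ∈ Set.Icc (2*ε) (2-2*ε), |pev a d y| ≤ M := fun y hy => by
    simpa [Real.norm_eq_abs] using hM y hy
  have hM0 : 0 ≤ M ∨ True := Or.inr trivial
  -- integrability of the linear combinations
  have hcomb : ∀ u : ι → ℝ, Integrable (fun x => (∑ i, u i * Ψ i x) ^ 2) := by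
    intro u
    have h1 : Integrable (fun x => (Fintype.card ι : ℝ) * ∑ i, (u i * Ψ i x) ^ 2) := by
      refine Integrable.const_mul ?_ _
      exact integrable_finsetSum _ fun i _ => by
        simpa [mul_pow] using (hL2 i).const_mul (u i ^ 2)
    refine Integrable.mono' h1 ?_ ?_
    · exact (by
        have : Continuous fun x => (∑ i, u i * Ψ i x) ^ 2 := by
          have : ∀ i, Continuous fun x => u i * Ψ i x := fun i => (hc i).const_mul _
          exact (continuous_finsetSum _ fun i _ => this i).pow 2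
        exact this.aestronglyMeasurable)
    · refine Eventually.of_forall fun x => ?_
      rw [Real.norm_eq_abs, abs_of_nonneg (sq_nonneg _)]
      have := sq_sum_le_card_mul_sum_sq (s := Finset.univ) (f := fun i => u i * Ψ i x)
      simpa using this
  -- spectral bounds on the window
  have hlow : ∀ R x, -R ≤ x → ∀ u : ι → ℝ, ε * (u ⬝ᵥ u) ≤ u ⬝ᵥ (gramPath Ψ ε R x *ᵥ u) := by
    intro R x hx u
    rw [quad_gramPath hc]
    have : 0 ≤ ∫ t in (-R)..x, (∑ i, u i * Ψ i t) ^ 2 :=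
      intervalIntegral.integral_nonneg hx fun t _ => sq_nonneg _
    linarith
  have hup : ∀ R x, -R ≤ x → ∀ u : ι → ℝ, u ⬝ᵥ (gramPath Ψ ε R x *ᵥ u) ≤ (1-ε) * (u ⬝ᵥ u) := by
    intro R x hx u
    rw [quad_gramPath hc]
    have h1 : ∫ t in (-R)..x, (∑ i, u i * Ψ i t) ^ 2 ≤ ∫ t, (∑ i, u i * Ψ i t) ^ 2 := by
      rw [intervalIntegral.integral_of_le hx]
      exact setIntegral_le_integral (hcomb u) (Eventually.of_forall fun t => sq_nonneg _)
    have h2 := hGram u
    have h3 : u ⬝ᵥ u = ∑ i, u i ^ 2 := by simp [dotProduct, sq]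
    rw [h3] at *
    nlinarith
  -- the function along the path
  set φ : ℝ → ℝ := fun x => (∑ i, Ψ' i x ^ 2) - (π^2/4 - δ) * (∑ i, Ψ i x ^ 2) ^ 3 with hφ
  have hφint : Integrable φ := by
    refine Integrable.sub ?_ (hρ3.const_mul _)
    exact integrable_finsetSum _ fun i _ => hL2' i
  have hφc : Continuous φ := by
    have h1 : Continuous fun x => ∑ i, Ψ' i x ^ 2 :=
      continuous_finsetSum _ fun i _ => (hc' i).pow 2
    have h2 : Continuous fun x => ∑ i, Ψ i x ^ 2 :=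
      continuous_finsetSum _ fun i _ => (hc i).pow 2
    exact h1.sub ((h2.pow 3).const_mul _)
  have hstep : ∀ R : ℝ, 0 ≤ R →
      -(M * (∑ i, Ψ i R ^ 2) ^ 2) - M * (∑ i, Ψ i (-R) ^ 2) ^ 2 ≤ ∫ x in (-R)..R, φ x := by
    intro R hR
    set F : ℝ → ℝ := fun x => Bp a d (gramPath Ψ ε R x) (fun i => Ψ i x) with hF
    have hderiv : ∀ x, HasDerivAt F
        (DBp a d (gramPath Ψ ε R x) (fun i => Ψ i x) (fun i => Ψ' i x)) x := by
      intro x
      exact hasDerivAt_Bp a d (gramPath Ψ ε R) (fun t i => Ψ i t) (fun t i => Ψ' i t) x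
        (fun i => hd i x) (fun i j => gramPath_hasDerivAt hc ε R x i j)
    have hFc : Continuous F := continuous_iff_continuousAt.2 fun x => (hderiv x).continuousAt
    have hle := intervalIntegral.sub_le_integral_of_hasDeriv_right_of_le
      (a := -R) (b := R) (g := F) (φ := φ)
      (g' := fun x => DBp a d (gramPath Ψ ε R x) (fun i => Ψ i x) (fun i => Ψ' i x))
      (by linarith) hFc.continuousOn
      (fun x _ => (hderiv x).hasDerivWithinAt)
      hφint.integrableOn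
      (by
        intro x hx
        have := DBp_le a d ε δ hK (gramPath Ψ ε R x) (gramPath_symm ε R x)
          (hlow R x hx.1.le) (hup R x hx.1.le) (fun i => Ψ i x) (fun i => Ψ' i x)
        have e1 : (fun i => Ψ' i x) ⬝ᵥ (fun i => Ψ' i x) = ∑ i, Ψ' i x ^ 2 := by
          simp [dotProduct, sq]
        have e2 : (fun i => Ψ i x) ⬝ᵥ (fun i => Ψ i x) = ∑ i, Ψ i x ^ 2 := by
          simp [dotProduct, sq]
        rw [e1, e2] at this
        exact this)
    have hb1 := abs_Bp_le a d ε M hM' (gramPath Ψ ε R R) (gramPath_symm ε R R)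
      (hlow R R (by linarith)) (hup R R (by linarith)) (fun i => Ψ i R)
    have hb2 := abs_Bp_le a d ε M hM' (gramPath Ψ ε R (-R)) (gramPath_symm ε R (-R))
      (hlow R (-R) le_rfl) (hup R (-R) le_rfl) (fun i => Ψ i (-R))
    have e1 : (fun i => Ψ i R) ⬝ᵥ (fun i => Ψ i R) = ∑ i, Ψ i R ^ 2 := by simp [dotProduct, sq]
    have e2 : (fun i => Ψ i (-R)) ⬝ᵥ (fun i => Ψ i (-R)) = ∑ i, Ψ i (-R) ^ 2 := by
      simp [dotProduct, sq]
    rw [e1] at hb1
    rw [e2] at hb2
    have hb1' := (abs_le.1 hb1).1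
    have hb2' := (abs_le.1 hb2).2
    have : F R - F (-R) ≤ ∫ x in (-R)..R, φ x := hle
    simp only [hF] at this
    linarith
  -- pass to the limit
  have hρlim : Tendsto (fun x => ∑ i, Ψ i x ^ 2) atTop (𝓝 0) ∧
      Tendsto (fun x => ∑ i, Ψ i x ^ 2) atBot (𝓝 0) := by
    constructor
    · have := tendsto_finsetSum (Finset.univ : Finset ι)
        fun i _ => (sq_tendsto_zero (hd i) (hL2 i) (hL2' i) (hc' i)).1
      simpa using this
    · have := tendsto_finsetSum (Finset.univ : Finset ι)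
        fun i _ => (sq_tendsto_zero (hd i) (hL2 i) (hL2' i) (hc' i)).2
      simpa using this
  have hlimL : Tendsto (fun R : ℝ => -(M * (∑ i, Ψ i R ^ 2) ^ 2) - M * (∑ i, Ψ i (-R) ^ 2) ^ 2)
      atTop (𝓝 (-(M * 0 ^ 2) - M * 0 ^ 2)) := by
    have h1 := hρlim.1
    have h2 : Tendsto (fun R : ℝ => ∑ i, Ψ i (-R) ^ 2) atTop (𝓝 0) :=
      hρlim.2.comp tendsto_neg_atTop_atBot
    exact ((h1.pow 2).const_mul M).neg.sub ((h2.pow 2).const_mul M)
  have hlimR : Tendsto (fun R : ℝ => ∫ x in (-R)..R, φ x) atTop (𝓝 (∫ x, φ x)) :=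
    intervalIntegral_tendsto_integral hφint tendsto_neg_atTop_atBot tendsto_id
  have hfinal : -(M * 0 ^ 2) - M * 0 ^ 2 ≤ ∫ x, φ x :=
    le_of_tendsto_of_tendsto hlimL hlimR
      ((eventually_ge_atTop 0).mono fun R hR => hstep R hR)
  have hsplit : ∫ x, φ x = (∑ i, ∫ x, Ψ' i x ^ 2) - (π^2/4 - δ) * ∫ x, (∑ i, Ψ i x ^ 2) ^ 3 := by
    simp only [hφ]
    rw [integral_sub (integrable_finsetSum _ fun i _ => hL2' i) (hρ3.const_mul _),
      integral_finsetSum _ (fun i _ => hL2' i), integral_const_mul]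
  rw [hsplit] at hfinal
  norm_num at hfinal
  linarith

/-- `ρ³` is integrable. -/
lemma rho_cube_integrable (hd : ∀ i x, HasDerivAt (Ψ i) (Ψ' i x) x) (hc' : ∀ i, Continuous (Ψ' i))
    (hL2 : ∀ i, Integrable (fun x => Ψ i x ^ 2))
    (hL2' : ∀ i, Integrable (fun x => Ψ' i x ^ 2)) :
    Integrable (fun x => (∑ i, Ψ i x ^ 2) ^ 3) := by
  have hc : ∀ i, Continuous (Ψ i) :=
    fun i => continuous_iff_continuousAt.2 fun x => (hd i x).continuousAt
  have hρc : Continuous fun x => ∑ i, Ψ i x ^ 2 :=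
    continuous_finsetSum _ fun i _ => (hc i).pow 2
  have hρlim : Tendsto (fun x => ∑ i, Ψ i x ^ 2) atTop (𝓝 0) ∧
      Tendsto (fun x => ∑ i, Ψ i x ^ 2) atBot (𝓝 0) := by
    constructor
    · have := tendsto_finsetSum (Finset.univ : Finset ι)
        fun i _ => (sq_tendsto_zero (hd i) (hL2 i) (hL2' i) (hc' i)).1
      simpa using this
    · have := tendsto_finsetSum (Finset.univ : Finset ι)
        fun i _ => (sq_tendsto_zero (hd i) (hL2 i) (hL2' i) (hc' i)).2
      simpa using this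
  obtain ⟨C, hC⟩ := exists_bound_of_tendsto hρc hρlim.1 hρlim.2
  have hρint : Integrable fun x => ∑ i, Ψ i x ^ 2 := integrable_finsetSum _ fun i _ => hL2 i
  refine Integrable.mono' (hρint.const_mul (C ^ 2)) (hρc.pow 3).aestronglyMeasurable ?_
  refine Eventually.of_forall fun x => ?_
  have hnn : 0 ≤ ∑ i, Ψ i x ^ 2 := Finset.sum_nonneg fun i _ => sq_nonneg _
  have hle := hC x
  rw [abs_of_nonneg hnn] at hle
  rw [Real.norm_eq_abs, abs_of_nonneg (pow_nonneg hnn 3)]
  have : (∑ i, Ψ i x ^ 2) ^ 2 ≤ C ^ 2 := by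
    exact pow_le_pow_left₀ hnn hle 2
  nlinarith

/-- **The sharp kinetic inequality.** -/
theorem core (hd : ∀ i x, HasDerivAt (Ψ i) (Ψ' i x) x) (hc' : ∀ i, Continuous (Ψ' i))
    (hL2 : ∀ i, Integrable (fun x => Ψ i x ^ 2))
    (hL2' : ∀ i, Integrable (fun x => Ψ' i x ^ 2))
    (hGram : ∀ u : ι → ℝ, ∫ x, (∑ i, u i * Ψ i x) ^ 2 ≤ ∑ i, u i ^ 2) :
    π^2/4 * ∫ x, (∑ i, Ψ i x ^ 2) ^ 3 ≤ ∑ i, ∫ x, Ψ' i x ^ 2 := by
  have hρ3 := rho_cube_integrable hd hc' hL2 hL2'
  set R3 := ∫ x, (∑ i, Ψ i x ^ 2) ^ 3 with hR3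
  set T := ∑ i, ∫ x, Ψ' i x ^ 2 with hT
  have hR3nn : 0 ≤ R3 := integral_nonneg fun x => pow_nonneg (Finset.sum_nonneg fun i _ => sq_nonneg _) 3
  -- scaling
  have hscaled : ∀ s : ℝ, 0 < s → s < 1 → π^2/4 * (s^2 * R3) ≤ T := by
    intro s hs hs1
    set κ := Real.sqrt s with hκ
    have hκ2 : κ ^ 2 = s := Real.sq_sqrt hs.le
    have hκpos : 0 < κ := Real.sqrt_pos.2 hs
    set ε := (1 - s) / 2 with hε
    have hε0 : 0 < ε := by simp only [hε]; linarith
    have hε1 : ε < 1/2 := by simp only [hε]; linarith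
    have hdκ : ∀ i x, HasDerivAt (fun x => κ * Ψ i x) (κ * Ψ' i x) x :=
      fun i x => (hd i x).const_mul κ
    have hc'κ : ∀ i, Continuous fun x => κ * Ψ' i x := fun i => (hc' i).const_mul κ
    have hL2κ : ∀ i, Integrable fun x => (κ * Ψ i x) ^ 2 := fun i => by
      simpa [mul_pow] using (hL2 i).const_mul (κ ^ 2)
    have hL2'κ : ∀ i, Integrable fun x => (κ * Ψ' i x) ^ 2 := fun i => by
      simpa [mul_pow] using (hL2' i).const_mul (κ ^ 2)
    have hGramκ : ∀ u : ι → ℝ,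
        ∫ x, (∑ i, u i * (κ * Ψ i x)) ^ 2 ≤ (1 - 2 * ε) * ∑ i, u i ^ 2 := by
      intro u
      have e : ∀ x, (∑ i, u i * (κ * Ψ i x)) ^ 2 = s * (∑ i, u i * Ψ i x) ^ 2 := by
        intro x
        have : ∑ i, u i * (κ * Ψ i x) = κ * ∑ i, u i * Ψ i x := by
          rw [Finset.mul_sum]
          exact Finset.sum_congr rfl fun i _ => by ring
        rw [this, mul_pow, hκ2]
      simp_rw [e]
      rw [integral_const_mul]
      have h1 : 1 - 2 * ε = s := by simp only [hε]; ring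
      rw [h1]
      exact mul_le_mul_of_nonneg_left (hGram u) hs.le
    have hρ3κ := rho_cube_integrable (Ψ := fun i x => κ * Ψ i x) (Ψ' := fun i x => κ * Ψ' i x)
      hdκ hc'κ hL2κ hL2'κ
    have hmain : ∀ δ > 0, (π^2/4 - δ) * ∫ x, (∑ i, (κ * Ψ i x) ^ 2) ^ 3
        ≤ ∑ i, ∫ x, (κ * Ψ' i x) ^ 2 := fun δ hδ =>
      core_eps_delta (Ψ := fun i x => κ * Ψ i x) (Ψ' := fun i x => κ * Ψ' i x)
        hdκ hc'κ hL2κ hL2'κ ε δ hε0 hε1 hδ hGramκ hρ3κ
    have e1 : ∀ x, (∑ i, (κ * Ψ i x) ^ 2) ^ 3 = s ^ 3 * (∑ i, Ψ i x ^ 2) ^ 3 := by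
      intro x
      have : ∑ i, (κ * Ψ i x) ^ 2 = s * ∑ i, Ψ i x ^ 2 := by
        rw [Finset.mul_sum]
        exact Finset.sum_congr rfl fun i _ => by rw [mul_pow, hκ2]
      rw [this, mul_pow]
    have e2 : ∀ i, ∫ x, (κ * Ψ' i x) ^ 2 = s * ∫ x, Ψ' i x ^ 2 := by
      intro i
      have : ∀ x, (κ * Ψ' i x) ^ 2 = s * Ψ' i x ^ 2 := fun x => by rw [mul_pow, hκ2]
      simp_rw [this]
      rw [integral_const_mul]
    have hmain' : ∀ δ > 0, (π^2/4 - δ) * (s^3 * R3) ≤ s * T := by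
      intro δ hδ
      have := hmain δ hδ
      simp_rw [e1, e2] at this
      rw [integral_const_mul, ← Finset.mul_sum] at this
      exact this
    have hlim : π^2/4 * (s^3 * R3) ≤ s * T := by
      refine le_of_forall_pos_le_add fun η hη => ?_
      by_cases h0 : s^3 * R3 = 0
      · rw [h0, mul_zero]
        have : 0 ≤ T := Finset.sum_nonneg fun i _ => integral_nonneg fun x => sq_nonneg _
        have := mul_nonneg hs.le this
        linarith
      · have hpos : 0 < s^3 * R3 :=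
          lt_of_le_of_ne (mul_nonneg (pow_nonneg hs.le 3) hR3nn) (Ne.symm h0)
        have := hmain' (η / (s^3 * R3)) (div_pos hη hpos)
        have e : (π^2/4 - η / (s^3 * R3)) * (s^3 * R3) = π^2/4 * (s^3 * R3) - η := by
          rw [sub_mul, div_mul_cancel₀ _ (ne_of_gt hpos)]
        rw [e] at this
        linarith
    have : s * (π^2/4 * (s^2 * R3)) ≤ s * T := by
      calc s * (π^2/4 * (s^2 * R3)) = π^2/4 * (s^3 * R3) := by ring
        _ ≤ s * T := hlim
    exact le_of_mul_le_mul_left this hs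
  -- limit s → 1
  have hcont : Tendsto (fun s : ℝ => π^2/4 * (s^2 * R3)) (𝓝[<] 1) (𝓝 (π^2/4 * (1^2 * R3))) := by
    have : Continuous fun s : ℝ => π^2/4 * (s^2 * R3) := by fun_prop
    exact (this.tendsto 1).mono_left nhdsWithin_le_nhds
  have hev : ∀ᶠ s in 𝓝[<] (1:ℝ), π^2/4 * (s^2 * R3) ≤ T := by
    have : ∀ᶠ s in 𝓝[<] (1:ℝ), 0 < s ∧ s < 1 := by
      have h1 : Ioo (0:ℝ) 1 ∈ 𝓝[<] (1:ℝ) := Ioo_mem_nhdsLT (by norm_num)
      filter_upwards [h1] with s hs using ⟨hs.1, hs.2⟩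
    filter_upwards [this] with s hs using hscaled s hs.1 hs.2
  have := le_of_tendsto hcont hev
  simpa using this

end Vale.Agent.P371h8
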