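import Mathlib

/-!
Bellman function proof of the sharp one-dimensional kinetic inequality, shared definitions.
`Y G b n` is the n-th iterate of `X ↦ G X + X G` on `b bᵀ`.
`Bn G b n = bᵀ (Y G b n) b`; in an eigenbasis of `G` it equals
`∑ i j, w i * w j * (g i + g j)^n` with `w i = ⟨b, e i⟩^2`.
`Z G b v n` is the derivative of `Y` along `Ġ = b bᵀ`, `ḃ = v`.
-/

namespace Vale.Agent.P371h8
open Matrix BigOperators

variable {ι : Type*} [Fintype ι] [DecidableEq ι]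

/-- divided difference of `z^n`: `dd n y y' = ∑_{r+s=n-1} y^r y'^s`. -/
def dd (n : ℕ) (y y' : ℝ) : ℝ := ∑ r ∈ Finset.range n, y ^ r * y' ^ (n - 1 - r)

/-- polynomial with coefficients `a n`, `n < d`. -/
def pev (a : ℕ → ℝ) (d : ℕ) (z : ℝ) : ℝ := ∑ n ∈ Finset.range d, a n * z ^ n

/-- its divided difference. -/
def pdd (a : ℕ → ℝ) (d : ℕ) (y y' : ℝ) : ℝ := ∑ n ∈ Finset.range d, a n * dd n y y'

/-- iterates of `X ↦ G X + X G` on `b bᵀ`. -/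
def Y (G : Matrix ι ι ℝ) (b : ι → ℝ) : ℕ → Matrix ι ι ℝ
  | 0 => vecMulVec b b
  | n + 1 => G * Y G b n + Y G b n * G

/-- derivative of `Y` along `Ġ = b bᵀ`, `ḃ = v`. -/
def Z (G : Matrix ι ι ℝ) (b v : ι → ℝ) : ℕ → Matrix ι ι ℝ
  | 0 => vecMulVec v b + vecMulVec b v
  | n + 1 => vecMulVec b b * Y G b n + G * Z G b v n + Z G b v n * G + Y G b n * vecMulVec b b

/-- `bᵀ (Y n) b`. -/
def Bn (G : Matrix ι ι ℝ) (b : ι → ℝ) (n : ℕ) : ℝ := b ⬝ᵥ (Y G b n *ᵥ b)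

/-- derivative of `Bn` along the path. -/
def DBn (G : Matrix ι ι ℝ) (b v : ι → ℝ) (n : ℕ) : ℝ :=
  v ⬝ᵥ (Y G b n *ᵥ b) + b ⬝ᵥ (Z G b v n *ᵥ b) + b ⬝ᵥ (Y G b n *ᵥ v)

/-- the polynomial Bellman function. -/
def Bp (a : ℕ → ℝ) (d : ℕ) (G : Matrix ι ι ℝ) (b : ι → ℝ) : ℝ :=
  ∑ n ∈ Finset.range d, a n * Bn G b n

/-- its derivative along the path. -/
def DBp (a : ℕ → ℝ) (d : ℕ) (G : Matrix ι ι ℝ) (b v : ι → ℝ) : ℝ :=
  ∑ n ∈ Finset.range d, a n * DBn G b v n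

end Vale.Agent.P371h8
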