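import Vale.Agent.P371h8.Core

namespace Vale.Agent.P371h8
open BigOperators Real MeasureTheory Filter Topology Set

/-- Young's inequality with the sharp constants of the case `γ = 1`. -/
lemma young_sharp (r ρ : ℝ) (hr : 0 ≤ r) (hρ : 0 ≤ ρ) :
    r ^ 2 * ρ ≤ π ^ 2 / 4 * ρ ^ 3 + 4 / (3 * √3 * π) * r ^ 3 := by
  have hs : (√3 : ℝ) ^ 2 = 3 := Real.sq_sqrt (by norm_num)
  have hspos : (0 : ℝ) < √3 := Real.sqrt_pos.2 (by norm_num)
  have hπ : 0 < π := Real.pi_pos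
  -- a = ρ √3 π / 2, so that 3 a r² ≤ a³ + 2 r³
  set a : ℝ := ρ * (√3 * π / 2) with ha
  have ha0 : 0 ≤ a := by positivity
  have key : 3 * a * r ^ 2 ≤ a ^ 3 + 2 * r ^ 3 := by
    nlinarith [mul_nonneg (sq_nonneg (a - r)) (by positivity : 0 ≤ a + 2 * r)]
  have hk : (0 : ℝ) < 2 / (3 * (√3 * π)) := by positivity
  have h2 := mul_le_mul_of_nonneg_left key hk.le
  have e1 : 2 / (3 * (√3 * π)) * (3 * a * r ^ 2) = r ^ 2 * ρ := by
    simp only [ha]
    field_simp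
  have e2 : 2 / (3 * (√3 * π)) * (a ^ 3 + 2 * r ^ 3) = π ^ 2 / 4 * ρ ^ 3 + 4 / (3 * √3 * π) * r ^ 3 := by
    simp only [ha]
    have : (√3 : ℝ) ^ 3 = 3 * √3 := by
      calc (√3 : ℝ) ^ 3 = (√3) ^ 2 * √3 := by ring
        _ = 3 * √3 := by rw [hs]
    field_simp
    ring_nf
    rw [this]
    ring
  rw [e1, e2] at h2
  exact h2

/-- `V ρ ≤ (π²/4) ρ³ + L V^{3/2}` with the one bound state constant `L = 4/(3√3π)`. -/
lemma young_pot (V ρ : ℝ) (hV : 0 ≤ V) (hρ : 0 ≤ ρ) :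
    V * ρ ≤ π ^ 2 / 4 * ρ ^ 3 + 4 / (3 * √3 * π) * V ^ (3 / 2 : ℝ) := by
  have h := young_sharp (√V) ρ (Real.sqrt_nonneg _) hρ
  rw [Real.sq_sqrt hV] at h
  have : (√V) ^ 3 = V ^ (3 / 2 : ℝ) := by
    rw [Real.sqrt_eq_rpow, ← Real.rpow_natCast, ← Real.rpow_mul hV]
    norm_num
  rwa [this] at h


variable {ι : Type*} [Fintype ι] [DecidableEq ι]

/-- The Gram bound for an orthonormal family. -/
lemma gram_of_orthonormal {ψ : ι → ℝ → ℝ} (hc : ∀ i, Continuous (ψ i))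
    (hL2 : ∀ i, Integrable fun x => ψ i x ^ 2)
    (horth : ∀ i j, ∫ x, ψ i x * ψ j x = if i = j then 1 else 0) (u : ι → ℝ) :
    ∫ x, (∑ i, u i * ψ i x) ^ 2 ≤ ∑ i, u i ^ 2 := by
  have hprod : ∀ i j, Integrable fun x => ψ i x * ψ j x := by
    intro i j
    refine Integrable.mono' ((hL2 i).add (hL2 j)) ((hc i).mul (hc j)).aestronglyMeasurable ?_
    refine Eventually.of_forall fun x => ?_
    simp only [Real.norm_eq_abs, Pi.add_apply]
    rw [abs_le]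
    constructor <;> nlinarith [sq_nonneg (ψ i x + ψ j x), sq_nonneg (ψ i x - ψ j x)]
  have e : ∀ x, (∑ i, u i * ψ i x) ^ 2 = ∑ i, ∑ j, u i * u j * (ψ i x * ψ j x) := by
    intro x
    rw [sq, Finset.sum_mul_sum]
    exact Finset.sum_congr rfl fun i _ => Finset.sum_congr rfl fun j _ => by ring
  simp_rw [e]
  rw [integral_finsetSum]
  · apply le_of_eq
    refine Finset.sum_congr rfl fun i _ => ?_
    rw [integral_finsetSum]
    · simp_rw [integral_const_mul, horth]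
      simp [sq]
    · exact fun j _ => (hprod i j).const_mul _
  · exact fun i _ => integrable_finsetSum _ fun j _ => (hprod i j).const_mul _

/-- **Sharp Lieb-Thirring bound at `γ = 1`**, form version: every orthonormal family of `C¹`
functions in `H¹(ℝ)` has total energy at least `-L ∫ V^{3/2}` with `L = 4/(3√3π)`. -/
theorem energy_bound (V : ℝ → ℝ) (hVm : Measurable V) (hV0 : ∀ x, 0 ≤ V x)
    (hV : Integrable fun x => V x ^ (3 / 2 : ℝ))
    (ψ ψ' : ι → ℝ → ℝ) (hd : ∀ i x, HasDerivAt (ψ i) (ψ' i x) x) (hc' : ∀ i, Continuous (ψ' i))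
    (hL2 : ∀ i, Integrable fun x => ψ i x ^ 2) (hL2' : ∀ i, Integrable fun x => ψ' i x ^ 2)
    (horth : ∀ i j, ∫ x, ψ i x * ψ j x = if i = j then 1 else 0) :
    (∀ i, Integrable fun x => V x * ψ i x ^ 2) ∧
    -(4 / (3 * √3 * π) * ∫ x, V x ^ (3 / 2 : ℝ)) ≤
      ∑ i, ((∫ x, ψ' i x ^ 2) - ∫ x, V x * ψ i x ^ 2) := by
  have hc : ∀ i, Continuous (ψ i) :=
    fun i => continuous_iff_continuousAt.2 fun x => (hd i x).continuousAt
  have hρ3 := rho_cube_integrable hd hc' hL2 hL2'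
  have hcore := core hd hc' hL2 hL2' (gram_of_orthonormal hc hL2 horth)
  have hdom : Integrable fun x => π ^ 2 / 4 * (∑ i, ψ i x ^ 2) ^ 3
      + 4 / (3 * √3 * π) * V x ^ (3 / 2 : ℝ) := (hρ3.const_mul _).add (hV.const_mul _)
  have hρ0 : ∀ x, 0 ≤ ∑ i, ψ i x ^ 2 := fun x => Finset.sum_nonneg fun i _ => sq_nonneg _
  have hpt : ∀ x, V x * ∑ i, ψ i x ^ 2 ≤ π ^ 2 / 4 * (∑ i, ψ i x ^ 2) ^ 3
      + 4 / (3 * √3 * π) * V x ^ (3 / 2 : ℝ) := fun x => young_pot _ _ (hV0 x) (hρ0 x)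
  have hint : ∀ i, Integrable fun x => V x * ψ i x ^ 2 := by
    intro i
    refine Integrable.mono' hdom ?_ ?_
    · exact (hVm.mul ((hc i).measurable.pow_const 2)).aestronglyMeasurable
    · refine Eventually.of_forall fun x => ?_
      rw [Real.norm_eq_abs, abs_of_nonneg (mul_nonneg (hV0 x) (sq_nonneg _))]
      refine le_trans ?_ (hpt x)
      refine mul_le_mul_of_nonneg_left ?_ (hV0 x)
      exact Finset.single_le_sum (f := fun i => ψ i x ^ 2) (fun j _ => sq_nonneg _) (Finset.mem_univ i)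
  refine ⟨hint, ?_⟩
  have hsum : ∑ i, ((∫ x, ψ' i x ^ 2) - ∫ x, V x * ψ i x ^ 2)
      = (∑ i, ∫ x, ψ' i x ^ 2) - ∫ x, V x * ∑ i, ψ i x ^ 2 := by
    rw [Finset.sum_sub_distrib]
    congr 1
    rw [← integral_finsetSum _ fun i _ => hint i]
    congr 1
    funext x
    rw [Finset.mul_sum]
  rw [hsum]
  have hVρint : Integrable fun x => V x * ∑ i, ψ i x ^ 2 := by
    have : (fun x => V x * ∑ i, ψ i x ^ 2) = fun x => ∑ i, V x * ψ i x ^ 2 := by
      funext x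
      rw [Finset.mul_sum]
    rw [this]
    exact integrable_finsetSum _ fun i _ => hint i
  have hle : ∫ x, V x * ∑ i, ψ i x ^ 2 ≤ π ^ 2 / 4 * (∫ x, (∑ i, ψ i x ^ 2) ^ 3)
      + 4 / (3 * √3 * π) * ∫ x, V x ^ (3 / 2 : ℝ) := by
    calc ∫ x, V x * ∑ i, ψ i x ^ 2
        ≤ ∫ x, (π ^ 2 / 4 * (∑ i, ψ i x ^ 2) ^ 3 + 4 / (3 * √3 * π) * V x ^ (3 / 2 : ℝ)) :=
          integral_mono hVρint hdom hpt
      _ = _ := by
          rw [integral_add (hρ3.const_mul _) (hV.const_mul _), integral_const_mul, integral_const_mul]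
  linarith

end Vale.Agent.P371h8
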