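import Vale.Agent.P371h8.Defs
import Vale.Agent.P371h11.Kernel

/-! Module K: the polynomial near `(π/4) cot(π z/2)`, in the form the proof uses. -/

open Real Set Filter Topology Polynomial

namespace Vale.Agent.P371h8

lemma pev_eq (p : ℝ[X]) (z : ℝ) : pev p.coeff (p.natDegree + 1) z = p.eval z := by
  rw [eval_eq_sum_range]
  rfl

lemma pdd_mul (a : ℕ → ℝ) (d : ℕ) (y y' : ℝ) :
    pdd a d y y' * (y - y') = pev a d y - pev a d y' := by
  unfold pdd pev dd
  rw [Finset.sum_mul, ← Finset.sum_sub_distrib]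
  refine Finset.sum_congr rfl fun n _ => ?_
  rw [mul_assoc, geom_sum₂_mul]
  ring

lemma continuous_pev (a : ℕ → ℝ) (d : ℕ) : Continuous (pev a d) := by
  unfold pev
  fun_prop

lemma continuous_pdd (a : ℕ → ℝ) (d : ℕ) (y : ℝ) : Continuous (pdd a d y) := by
  unfold pdd dd
  fun_prop

/-- the polynomial near `(π/4) cot(π z/2)` in C¹, in the form the proof uses. -/
theorem exists_poly (ε δ : ℝ) (hε : 0 < ε) (hε2 : ε < 1 / 2) (hδ : 0 < δ) :
    ∃ (d : ℕ) (a : ℕ → ℝ), ∀ y ∈ Set.Icc (2 * ε) (2 - 2 * ε), ∀ y' ∈ Set.Icc (2 * ε) (2 - 2 * ε),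
      4 * pev a d y * pev a d y' + 2 * pdd a d y y' + π ^ 2 / 4 ≤ δ := by
  obtain ⟨p, hp⟩ := Vale.Agent.P371h11.exists_poly_kernel (δ := ε) (K := π ^ 2 / 4 - δ) hε
    (by linarith) (by linarith)
  refine ⟨p.natDegree + 1, p.coeff, ?_⟩
  set a := p.coeff with ha
  set d := p.natDegree + 1 with hd
  have hev : ∀ z, p.eval z = pev a d z := fun z => (pev_eq p z).symm
  -- the case of distinct points on the larger interval
  have hne : ∀ y ∈ Icc ε (2 - ε), ∀ y' ∈ Icc ε (2 - ε), y ≠ y' →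
      4 * pev a d y * pev a d y' + 2 * pdd a d y y' + π ^ 2 / 4 ≤ δ := by
    intro y hy y' hy' h
    have h1 := hp y hy y' hy' h
    simp only [hev] at h1
    have hne' : y - y' ≠ 0 := sub_ne_zero.2 h
    have h2 : (pev a d y - pev a d y') / (y - y') = pdd a d y y' := by
      rw [← pdd_mul]
      field_simp
    rw [h2] at h1
    linarith
  intro y hy y' hy'
  have hyL : y ∈ Icc ε (2 - ε) := ⟨by linarith [hy.1], by linarith [hy.2]⟩
  have hyL' : y' ∈ Icc ε (2 - ε) := ⟨by linarith [hy'.1], by linarith [hy'.2]⟩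
  by_cases h : y = y'
  · subst h
    have hcont : Continuous fun t : ℝ =>
        4 * pev a d y * pev a d t + 2 * pdd a d y t + π ^ 2 / 4 :=
      ((continuous_const.mul (continuous_pev a d)).add
        (continuous_const.mul (continuous_pdd a d y))).add continuous_const
    have hlim : Tendsto (fun t : ℝ => 4 * pev a d y * pev a d t + 2 * pdd a d y t + π ^ 2 / 4)
        (𝓝[≠] y) (𝓝 (4 * pev a d y * pev a d y + 2 * pdd a d y y + π ^ 2 / 4)) :=
      (hcont.tendsto y).mono_left nhdsWithin_le_nhds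
    refine le_of_tendsto hlim ?_
    have hnear : Ioo ε (2 - ε) ∈ 𝓝 y := Ioo_mem_nhds (by linarith [hy.1]) (by linarith [hy.2])
    filter_upwards [mem_nhdsWithin_of_mem_nhds hnear, self_mem_nhdsWithin] with t ht htne
    exact hne y hyL t ⟨ht.1.le, ht.2.le⟩ (Ne.symm htne)
  · exact hne y hyL y' hyL' h

end Vale.Agent.P371h8
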